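import Mathlib

/-! Areas of projected triangles in three-space. -/

namespace Vale.Agent.P243

open MeasureTheory Set

abbrev E3 := EuclideanSpace ℝ (Fin 3)
abbrev E2 := EuclideanSpace ℝ (Fin 2)

/-- determinant of three vectors -/
def det3 (v w u : E3) : ℝ :=
  v 0 * (w 1 * u 2 - w 2 * u 1) - v 1 * (w 0 * u 2 - w 2 * u 0) + v 2 * (w 0 * u 1 - w 1 * u 0)

/-- closed standard triangle -/
def Tc : Set E2 := {s | 0 ≤ s 0 ∧ 0 ≤ s 1 ∧ s 0 + s 1 ≤ 1}
/-- half open standard triangle -/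
def To : Set E2 := {s | 0 ≤ s 0 ∧ 0 < s 1 ∧ s 0 + s 1 ≤ 1}

lemma inner3 (a b : E3) : inner ℝ a b = a 0 * b 0 + a 1 * b 1 + a 2 * b 2 := by
  simp [PiLp.inner_apply, Fin.sum_univ_three, mul_comm]

lemma normsq3 (a : E3) : ‖a‖ ^ 2 = a 0 ^ 2 + a 1 ^ 2 + a 2 ^ 2 := by
  rw [← real_inner_self_eq_norm_sq, inner3]; ring

lemma proj_val {u : E3} (hu : ‖u‖ = 1) (x : E3) :
    (((ℝ ∙ u)ᗮ.orthogonalProjectionOnto x : (ℝ ∙ u)ᗮ) : E3) = x - (inner ℝ u x) • u := by
  rw [Submodule.coe_orthogonalProjectionOnto_apply, Submodule.starProjection_orthogonal_val,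
    Submodule.starProjection_unit_singleton ℝ hu]

lemma inner_proj {u : E3} (hu : ‖u‖ = 1) (v w : E3) :
    inner ℝ ((ℝ ∙ u)ᗮ.orthogonalProjectionOnto v) ((ℝ ∙ u)ᗮ.orthogonalProjectionOnto w)
      = inner ℝ v w - inner ℝ u v * inner ℝ u w := by
  rw [Submodule.coe_inner, proj_val hu, proj_val hu]
  have hn := normsq3 u
  rw [hu] at hn
  simp only [inner3, PiLp.sub_apply, PiLp.smul_apply, smul_eq_mul]
  linear_combination (-((u 0 * v 0 + u 1 * v 1 + u 2 * v 2) * (u 0 * w 0 + u 1 * w 1 + u 2 * w 2))) * hn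

lemma lint : ∫⁻ x in Icc (0:ℝ) 1, ENNReal.ofReal (1 - x) = ENNReal.ofReal (1/2) := by
  rw [← ofReal_integral_eq_lintegral_ofReal]
  · congr 1
    rw [integral_Icc_eq_integral_Ioc, ← intervalIntegral.integral_of_le (by norm_num)]
    rw [intervalIntegral.integral_sub (by simp) (by simp)]
    simp
    norm_num
  · exact (by fun_prop : Continuous fun x : ℝ => 1 - x).integrableOn_Icc
  · filter_upwards [ae_restrict_mem measurableSet_Icc] with x hx
    simp only [Pi.zero_apply]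
    linarith [hx.2]

lemma mp2 : MeasurePreserving (fun s : E2 => ((s 0, s 1) : ℝ × ℝ)) volume volume := by
  have h := (volume_preserving_finTwoArrow ℝ).comp (PiLp.volume_preserving_ofLp (Fin 2))
  exact h

lemma vol_Tc : volume Tc = ENNReal.ofReal (1/2) := by
  have hm : MeasurableSet {p : ℝ × ℝ | 0 ≤ p.1 ∧ 0 ≤ p.2 ∧ p.1 + p.2 ≤ 1} := by
    measurability
  have h := mp2.measure_preimage hm.nullMeasurableSet
  have h1 : Tc = (fun s : E2 => ((s 0, s 1) : ℝ × ℝ)) ⁻¹'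
      {p : ℝ × ℝ | 0 ≤ p.1 ∧ 0 ≤ p.2 ∧ p.1 + p.2 ≤ 1} := rfl
  rw [h1, h, Measure.volume_eq_prod, Measure.prod_apply hm, ← lint,
    ← lintegral_indicator measurableSet_Icc]
  congr 1
  ext x
  by_cases hx : x ∈ Icc (0:ℝ) 1
  · rw [indicator_of_mem hx]
    have : Prod.mk x ⁻¹' {p : ℝ × ℝ | 0 ≤ p.1 ∧ 0 ≤ p.2 ∧ p.1 + p.2 ≤ 1} = Icc 0 (1 - x) := by
      ext y
      simp only [mem_preimage, mem_ofPred_eq, mem_Icc]
      constructor
      · rintro ⟨_, h2, h3⟩; exact ⟨h2, by linarith⟩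
      · rintro ⟨h2, h3⟩; exact ⟨hx.1, h2, by linarith⟩
    rw [this]; simp
  · rw [indicator_of_notMem hx]
    have : Prod.mk x ⁻¹' {p : ℝ × ℝ | 0 ≤ p.1 ∧ 0 ≤ p.2 ∧ p.1 + p.2 ≤ 1} = ∅ := by
      ext y
      simp only [mem_preimage, mem_ofPred_eq, mem_empty_iff_false, iff_false]
      rintro ⟨h1, h2, h3⟩
      exact hx ⟨h1, by linarith⟩
    rw [this]; simp

lemma vol_To : volume To = ENNReal.ofReal (1/2) := by
  have hm : MeasurableSet {p : ℝ × ℝ | 0 ≤ p.1 ∧ 0 < p.2 ∧ p.1 + p.2 ≤ 1} := by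
    measurability
  have h := mp2.measure_preimage hm.nullMeasurableSet
  have h1 : To = (fun s : E2 => ((s 0, s 1) : ℝ × ℝ)) ⁻¹'
      {p : ℝ × ℝ | 0 ≤ p.1 ∧ 0 < p.2 ∧ p.1 + p.2 ≤ 1} := rfl
  rw [h1, h, Measure.volume_eq_prod, Measure.prod_apply hm, ← lint,
    ← lintegral_indicator measurableSet_Icc]
  congr 1
  ext x
  by_cases hx : x ∈ Icc (0:ℝ) 1
  · rw [indicator_of_mem hx]
    have : Prod.mk x ⁻¹' {p : ℝ × ℝ | 0 ≤ p.1 ∧ 0 < p.2 ∧ p.1 + p.2 ≤ 1} = Ioc 0 (1 - x) := by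
      ext y
      simp only [mem_preimage, mem_ofPred_eq, mem_Ioc]
      constructor
      · rintro ⟨_, h2, h3⟩; exact ⟨h2, by linarith⟩
      · rintro ⟨h2, h3⟩; exact ⟨hx.1, h2, by linarith⟩
    rw [this]; simp
  · rw [indicator_of_notMem hx]
    have : Prod.mk x ⁻¹' {p : ℝ × ℝ | 0 ≤ p.1 ∧ 0 < p.2 ∧ p.1 + p.2 ≤ 1} = ∅ := by
      ext y
      simp only [mem_preimage, mem_ofPred_eq, mem_empty_iff_false, iff_false]
      rintro ⟨h1, h2, h3⟩
      exact hx ⟨h1, by linarith⟩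
    rw [this]; simp

/-- the linear map `s ↦ s 0 • v + s 1 • w` -/
noncomputable def lin2 {V : Type*} [AddCommGroup V] [Module ℝ V] (v w : V) : E2 →ₗ[ℝ] V where
  toFun s := s 0 • v + s 1 • w
  map_add' s t := by simp only [PiLp.add_apply, add_smul]; abel
  map_smul' c s := by simp only [PiLp.smul_apply, smul_eq_mul, RingHom.id_apply, smul_add, mul_smul]

/-- the affine parametrisation of the plane through `a` spanned by `v`, `w` -/
noncomputable def aff (a v w : E3) (s : E2) : E3 := a + (s 0 • v + s 1 • w)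

lemma area_image {u : E3} (hu : ‖u‖ = 1) (a v w : E3) (S : Set E2) :
    volume ((ℝ ∙ u)ᗮ.orthogonalProjectionOnto '' (aff a v w '' S))
      = ENNReal.ofReal |det3 v w u| * volume S := by
  have hu0 : u ≠ 0 := by rintro rfl; simp at hu
  have : Fact (Module.finrank ℝ E3 = 2 + 1) := ⟨by simp⟩
  have hW : Module.finrank ℝ (ℝ ∙ u)ᗮ = 2 := Submodule.finrank_orthogonal_span_singleton hu0
  have h2 : Module.finrank ℝ E2 = 2 := by simp
  set P := (ℝ ∙ u)ᗮ.orthogonalProjectionOnto with hP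
  have himg : P '' (aff a v w '' S) = (fun y => P a + y) '' (lin2 (P v) (P w) '' S) := by
    rw [image_image, image_image]
    congr 1
    ext s
    simp [aff, lin2]
  rw [himg, image_add_left, measure_preimage_add]
  have h3 := LinearMap.euclideanHausdorffMeasure_image_eq_normDet_mul_volume (lin2 (P v) (P w)) S
  rw [h2.trans hW.symm, InnerProductSpace.euclideanHausdorffMeasure_eq_volume] at h3
  rw [h3]
  congr 2
  have h4 := LinearMap.normDet_sq_eq_det_gram (lin2 (P v) (P w)) (EuclideanSpace.basisFun (Fin 2) ℝ)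
  have hn := normsq3 u
  rw [hu] at hn
  have h5 : (lin2 (P v) (P w)).normDet ^ 2 = (det3 v w u) ^ 2 := by
    have h6 : ((lin2 (P v) (P w)).normDet ^ 2 : ℝ) = _ := h4
    rw [h6, Matrix.det_fin_two]
    simp only [Matrix.gram_apply, lin2, LinearMap.coe_mk, AddHom.coe_mk,
      EuclideanSpace.basisFun_apply]
    simp only [PiLp.single_apply, Fin.isValue, ↓reduceIte, one_smul, one_ne_zero, zero_smul,
      add_zero, zero_ne_one, zero_add]
    simp only [hP, inner_proj hu, inner3, det3]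
    linear_combination (((v 0 * v 0 + v 1 * v 1 + v 2 * v 2) * (w 0 * w 0 + w 1 * w 1 + w 2 * w 2)
      - (v 0 * w 0 + v 1 * w 1 + v 2 * w 2) ^ 2)) * hn
  rw [← sq_abs (det3 v w u)] at h5
  exact (pow_left_inj₀ (LinearMap.normDet_nonneg _) (abs_nonneg _) two_ne_zero).1 h5

end Vale.Agent.P243
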