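import Vale.Agent.P243.Data

/-! The real inequalities behind the covering. -/

namespace Vale.Agent.P243

lemma pair_lemma {δ e m p q b d s p' q' b' d' s' σ X Y z : ℝ} (hσ : σ = 1 ∨ σ = -1)
    (hδ : 0 < δ) (hm : m * (1 + m) < 1)
    (hp : 0 ≤ p) (hq : q ≤ 1) (hp' : 0 ≤ p') (hq' : q' ≤ 1)
    (hb0 : 0 ≤ b) (hb : b ≤ m) (hd0 : 0 ≤ d) (hd : d ≤ m) (hs : 0 ≤ s)
    (hb0' : 0 ≤ b') (hb' : b' ≤ m) (hd0' : 0 ≤ d') (hd' : d' ≤ m) (hs' : 0 ≤ s')
    (h4 : b * d ^ 2 + e * (1 + m) * d ≤ δ * (1 + b ^ 2) * s)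
    (h4' : b' * d' ^ 2 + e * (1 + m) * d' ≤ δ * (1 + b' ^ 2) * s')
    (h5 : d ≤ δ * p * (1 + s) + e) (h6 : δ * q * (1 + s) ≤ d + e)
    (h5' : d' ≤ δ * p' * (1 + s') + e) (h6' : δ * q' * (1 + s') ≤ d' + e)
    (hmono : 0 ≤ (b - b') * ((d ^ 2 - δ * b * s) - (d' ^ 2 - δ * b' * s')))
    (w1 : p * (1 - z + d * X) ≤ Y + b * X) (w2 : Y + b * X ≤ q * (1 - z + d * X))
    (w1' : p' * (1 + z + d' * (σ * Y)) ≤ -(σ * X) + b' * (σ * Y))
    (w2' : -(σ * X) + b' * (σ * Y) ≤ q' * (1 + z + d' * (σ * Y))) :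
    1 - z + d * X ≤ 1 + s ∨ 1 + z + d' * (σ * Y) ≤ 1 + s' := by
  by_contra hcon
  push Not at hcon
  obtain ⟨hr, hr'⟩ := hcon
  set r := 1 - z + d * X with hrdef
  set r' := 1 + z + d' * (σ * Y) with hrdef'
  have hr0 : 0 < r := by linarith
  have hr0' : 0 < r' := by linarith
  obtain ⟨t, ht⟩ : ∃ t, Y + b * X = t * r := ⟨(Y + b * X) / r, by field_simp⟩
  obtain ⟨t', ht'⟩ : ∃ t', -(σ * X) + b' * (σ * Y) = t' * r' :=
    ⟨(-(σ * X) + b' * (σ * Y)) / r', by field_simp⟩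
  rw [ht] at w1 w2
  rw [ht'] at w1' w2'
  have t1 : p ≤ t := le_of_mul_le_mul_right w1 hr0
  have t2 : t ≤ q := le_of_mul_le_mul_right w2 hr0
  have t1' : p' ≤ t' := le_of_mul_le_mul_right w1' hr0'
  have t2' : t' ≤ q' := le_of_mul_le_mul_right w2' hr0'
  have hσ2 : σ * σ = 1 := by rcases hσ with h | h <;> rw [h] <;> norm_num
  have hm0 : 0 ≤ m := hb0.trans hb
  set k := σ * d' + d * b' with hk
  set k' := d' * b - σ * d with hk'
  have hid : (1 + b * b') * (r + r' - 2) = k * (t * r) + k' * (t' * r') := by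
    rw [← ht, ← ht', hrdef, hrdef', hk, hk']
    linear_combination (d * X - d * b' * Y) * hσ2 * (-1)
  have hdb : d * b' ≤ d * m := mul_le_mul_of_nonneg_left hb' hd0
  have hdb' : d' * b ≤ d' * m := mul_le_mul_of_nonneg_left hb hd0'
  have hdb0 : 0 ≤ d * b' := mul_nonneg hd0 hb0'
  have hdb0' : 0 ≤ d' * b := mul_nonneg hd0' hb0
  have hka : |k| ≤ d' + d * m := by
    rw [abs_le]; rcases hσ with h | h <;> rw [hk, h] <;> constructor <;> linarith
  have hka' : |k'| ≤ d + d' * m := by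
    rw [abs_le]; rcases hσ with h | h <;> rw [hk', h] <;> constructor <;> linarith
  have hdm : d * m ≤ m * m := mul_le_mul_of_nonneg_right hd hm0
  have hdm' : d' * m ≤ m * m := mul_le_mul_of_nonneg_right hd' hm0
  have hkt : k * t < 1 := by
    have h1 : k * t ≤ |k| * 1 := by
      calc k * t ≤ |k| * t := mul_le_mul_of_nonneg_right (le_abs_self k) (by linarith)
        _ ≤ |k| * 1 := mul_le_mul_of_nonneg_left (by linarith) (abs_nonneg k)
    linarith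
  have hkt' : k' * t' < 1 := by
    have h1 : k' * t' ≤ |k'| * 1 := by
      calc k' * t' ≤ |k'| * t' := mul_le_mul_of_nonneg_right (le_abs_self k') (by linarith)
        _ ≤ |k'| * 1 := mul_le_mul_of_nonneg_left (by linarith) (abs_nonneg k')
    linarith
  have hbb : 0 ≤ b * b' := mul_nonneg hb0 hb0'
  have c1 : 0 < (1 + b * b' - k * t) * (r - (1 + s)) := mul_pos (by linarith) (by linarith)
  have c2 : 0 < (1 + b * b' - k' * t') * (r' - (1 + s')) := mul_pos (by linarith) (by linarith)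
  have c3 : (1 + b * b') * (s + s') < k * (t * (1 + s)) + k' * (t' * (1 + s')) := by
    clear_value r r' k k'
    linarith
  have c4 := mul_lt_mul_of_pos_left c3 hδ
  have e1 : |δ * t * (1 + s) - d| ≤ e := by
    have a1 : δ * p * (1 + s) ≤ δ * t * (1 + s) := by gcongr
    have a2 : δ * t * (1 + s) ≤ δ * q * (1 + s) := by gcongr
    rw [abs_le]; constructor <;> linarith
  have e1' : |δ * t' * (1 + s') - d'| ≤ e := by
    have a1 : δ * p' * (1 + s') ≤ δ * t' * (1 + s') := by gcongr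
    have a2 : δ * t' * (1 + s') ≤ δ * q' * (1 + s') := by gcongr
    rw [abs_le]; constructor <;> linarith
  have f1 : k * (δ * t * (1 + s) - d) ≤ (d' + d * m) * e := by
    refine (le_abs_self _).trans ?_
    rw [abs_mul]
    exact mul_le_mul hka e1 (abs_nonneg _) ((abs_nonneg _).trans hka)
  have f1' : k' * (δ * t' * (1 + s') - d') ≤ (d + d' * m) * e := by
    refine (le_abs_self _).trans ?_
    rw [abs_mul]
    exact mul_le_mul hka' e1' (abs_nonneg _) ((abs_nonneg _).trans hka')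
  have g : k * d + k' * d' = d ^ 2 * b' + d' ^ 2 * b := by rw [hk, hk']; ring
  clear_value r r' k k'
  linarith

lemma discrete_ivt (g : ℕ → ℝ) : ∀ n : ℕ, g 0 ≤ 0 → 0 ≤ g (n + 1) →
    ∃ k, k < n + 1 ∧ g k ≤ 0 ∧ 0 ≤ g (k + 1)
  | 0, h0, h1 => ⟨0, by omega, h0, h1⟩
  | n + 1, h0, h1 => by
    rcases le_total (g (n + 1)) 0 with h | h
    · exact ⟨n + 1, by omega, h, h1⟩
    · obtain ⟨k, hk, h2⟩ := discrete_ivt g n h0 h
      exact ⟨k, by omega, h2⟩

lemma allFrom_spec (a : ℕ) : ∀ m, allFrom a m = true → ∀ i, i < m → chk (a + i) = true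
  | 0, _, i, hi => absurd hi (by omega)
  | m + 1, h, i, hi => by
    simp only [allFrom, Bool.and_eq_true] at h
    rcases Nat.lt_succ_iff_lt_or_eq.1 hi with h1 | h1
    · exact allFrom_spec a m h.2 i h1
    · rw [h1]; exact h.1

lemma sumFrom_spec (a : ℕ) : ∀ m, sumFrom a m = ∑ i ∈ Finset.range m, Cn (a + i)
  | 0 => by simp [sumFrom]
  | m + 1 => by rw [sumFrom, Finset.sum_range_succ, sumFrom_spec a m, add_comm]

lemma chk_lt {k : ℕ} (hk : k < 10000) : chk k = true := by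
  simpa using allFrom_spec 0 10000 chk_all k hk

noncomputable def aR (k : ℕ) : ℝ := (An k : ℝ) / 10 ^ 12
noncomputable def bR (k : ℕ) : ℝ := (Bn k : ℝ) / 10 ^ 12
noncomputable def dR (k : ℕ) : ℝ := (Dn k : ℝ) / 10 ^ 12
noncomputable def sR (k : ℕ) : ℝ := (Sn k : ℝ) / 10 ^ 12
noncomputable def tR (k : ℕ) : ℝ := (k : ℝ) / 10000
noncomputable def cR (k : ℕ) : ℝ := (Cn k : ℝ) / 10 ^ 10

structure Facts (k : ℕ) : Prop where
  pl : tR k * dR k - bR k = - aR k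
  pr : tR (k + 1) * dR k - bR k = - aR (k + 1)
  b0 : 0 ≤ bR k
  b1 : bR k ≤ 23 / 100
  d0 : 0 ≤ dR k
  d1 : dR k ≤ 23 / 100
  s0 : 0 ≤ sR k
  c0 : 0 ≤ cR k
  h4 : bR k * dR k ^ 2 + 16 / 1000000 * (1 + 23 / 100) * dR k ≤ 21 / 100 * (1 + bR k ^ 2) * sR k
  h5 : dR k ≤ 21 / 100 * tR k * (1 + sR k) + 16 / 1000000
  h6 : 21 / 100 * tR (k + 1) * (1 + sR k) ≤ dR k + 16 / 1000000
  h7 : (1 + sR k) ^ 4 ≤ cR k ^ 2 * (1 + bR k ^ 2 + 2 * dR k ^ 2) * 20000 ^ 2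
  m1 : k + 1 < 10000 → bR k ≤ bR (k + 1)
  m2 : k + 1 < 10000 → dR k ^ 2 - 21 / 100 * bR k * sR k
    ≤ dR (k + 1) ^ 2 - 21 / 100 * bR (k + 1) * sR (k + 1)

lemma facts {k : ℕ} (hk : k < 10000) : Facts k := by
  have h := chk_lt hk
  simp only [chk, Bool.and_eq_true, Nat.ble_eq, Bool.or_eq_true, Nat.beq_eq] at h
  obtain ⟨⟨⟨⟨⟨⟨⟨h1, h2⟩, h3⟩, h4⟩, h5⟩, h6⟩, h7⟩, h8⟩ := h
  have hD : (Dn k : ℝ) = 10000 * (An k - An (k + 1)) := by
    rw [Dn]; push_cast [Nat.cast_sub h1]; ring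
  have hB : (Bn k : ℝ) = k * (An k - An (k + 1)) + An k := by
    rw [Bn]; push_cast [Nat.cast_sub h1]; ring
  have hQ : (Qn k : ℝ) = 10 ^ 24 + (Bn k : ℝ) ^ 2 + 2 * (Dn k : ℝ) ^ 2 := by
    rw [Qn]; push_cast; ring
  have h2' : (100 * Bn k : ℝ) ≤ 23 * 10 ^ 12 := by exact_mod_cast h2
  have h3' : (100 * Dn k : ℝ) ≤ 23 * 10 ^ 12 := by exact_mod_cast h3
  have h4' : (100000000 * Bn k * Dn k ^ 2 + 1968 * Dn k * 10 ^ 24 : ℝ)
      ≤ 21000000 * (10 ^ 24 + Bn k ^ 2) * Sn k := by exact_mod_cast h4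
  have h5' : (10 ^ 12 * Dn k : ℝ) ≤ 21000000 * k * (10 ^ 12 + Sn k) + 16000000 * 10 ^ 12 := by
    exact_mod_cast h5
  have h6' : (21000000 * (k + 1) * (10 ^ 12 + Sn k) : ℝ) ≤ 10 ^ 12 * Dn k + 16000000 * 10 ^ 12 := by
    exact_mod_cast h6
  have h7' : (10 ^ 20 * (10 ^ 12 + Sn k) ^ 4 : ℝ) ≤ Cn k ^ 2 * Qn k * 20000 ^ 2 * 10 ^ 24 := by
    exact_mod_cast h7
  refine ⟨?_, ?_, ?_, ?_, ?_, ?_, ?_, ?_, ?_, ?_, ?_, ?_, ?_, ?_⟩
  · simp only [tR, dR, bR, aR, hD, hB]; ring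
  · simp only [tR, dR, bR, aR, hD, hB]; push_cast; ring
  · unfold bR; positivity
  · unfold bR; linarith
  · unfold dR; positivity
  · unfold dR; linarith
  · unfold sR; positivity
  · unfold cR; positivity
  · unfold bR dR sR; linarith
  · unfold dR tR sR; linarith
  · unfold dR tR sR; push_cast; linarith
  · rw [hQ] at h7'; unfold sR cR bR dR; linarith
  · intro hk1
    rcases h8 with h8 | h8
    · omega
    · have : (Bn k : ℝ) ≤ Bn (k + 1) := by exact_mod_cast h8.1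
      unfold bR; linarith
  · intro hk1
    rcases h8 with h8 | h8
    · omega
    · have : (100 * Dn k ^ 2 + 21 * Bn (k + 1) * Sn (k + 1) : ℝ)
          ≤ 100 * Dn (k + 1) ^ 2 + 21 * Bn k * Sn k := by exact_mod_cast h8.2
      unfold bR dR sR; linarith

lemma mono_of_succ (f : ℕ → ℝ) (n : ℕ) (h : ∀ k, k + 1 < n → f k ≤ f (k + 1)) :
    ∀ i j, i ≤ j → j < n → f i ≤ f j := by
  intro i j hij hj
  induction j, hij using Nat.le_induction with
  | base => exact le_rfl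
  | succ j hij ih => exact (ih (by omega)).trans (h j hj)

lemma comono {i j : ℕ} (hi : i < 10000) (hj : j < 10000) :
    0 ≤ (bR i - bR j) * ((dR i ^ 2 - 21 / 100 * bR i * sR i)
      - (dR j ^ 2 - 21 / 100 * bR j * sR j)) := by
  have hb := mono_of_succ bR 10000 (fun k hk => (facts (by omega)).m1 hk)
  have hw := mono_of_succ (fun k => dR k ^ 2 - 21 / 100 * bR k * sR k) 10000
    (fun k hk => (facts (by omega)).m2 hk)
  rcases le_total i j with h | h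
  · exact mul_nonneg_of_nonpos_of_nonpos (sub_nonpos.2 (hb i j h hj)) (sub_nonpos.2 (hw i j h hj))
  · exact mul_nonneg (sub_nonneg.2 (hb j i h hi)) (sub_nonneg.2 (hw j i h hi))

/-- the wedge conditions -/
def Wedge (k : ℕ) (X Y z : ℝ) : Prop :=
  tR k * (1 - z + dR k * X) ≤ Y + bR k * X ∧ Y + bR k * X ≤ tR (k + 1) * (1 - z + dR k * X)

lemma wedge_exists {X Y z : ℝ} (h0 : -(aR 0) * X - Y ≤ 0) (h1 : Y ≤ 1 - z) :
    ∃ k, k < 10000 ∧ Wedge k X Y z := by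
  have hl : aR 10000 = 0 := by simp [aR, An_last]
  obtain ⟨k, hk, g1, g2⟩ := discrete_ivt (fun k => tR k * (1 - z) - aR k * X - Y) 9999
    (by simp only [tR]; linarith) (by
      show 0 ≤ tR 10000 * (1 - z) - aR 10000 * X - Y
      rw [hl]; simp only [tR]; norm_num; linarith)
  have f := facts hk
  refine ⟨k, hk, ?_, ?_⟩
  · have := f.pl
    have h2 : tR k * (1 - z + dR k * X) - (Y + bR k * X) = tR k * (1 - z) - aR k * X - Y := by
      linear_combination X * this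
    linarith
  · have := f.pr
    have h2 : tR (k + 1) * (1 - z + dR k * X) - (Y + bR k * X)
        = tR (k + 1) * (1 - z) - aR (k + 1) * X - Y := by
      linear_combination X * this
    linarith

lemma wedge_sign {X Y z : ℝ} (h1 : Y ≤ 1 - z) (h2 : -Y ≤ 1 - z) :
    ∃ ε : ℝ, (ε = 1 ∨ ε = -1) ∧ ∃ k, k < 10000 ∧ Wedge k (ε * X) (ε * Y) z := by
  rcases le_total (-(aR 0) * X - Y) 0 with h | h
  · exact ⟨1, Or.inl rfl, by simpa using wedge_exists h h1⟩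
  · refine ⟨-1, Or.inr rfl, ?_⟩
    exact wedge_exists (by linarith) (by linarith)

lemma tR_nonneg (k : ℕ) : 0 ≤ tR k := by unfold tR; positivity
lemma tR_le {k : ℕ} (hk : k < 10000) : tR (k + 1) ≤ 1 := by
  unfold tR
  have : ((k + 1 : ℕ) : ℝ) ≤ 10000 := by exact_mod_cast hk
  linarith

/-- the covering statement in the coordinates `x, y, z` -/
lemma cover_xyz {x y z : ℝ} (h1 : y ≤ 1 - z) (h2 : -y ≤ 1 - z) (h3 : x ≤ 1 + z)
    (h4 : -x ≤ 1 + z) :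
    ∃ ε : ℝ, (ε = 1 ∨ ε = -1) ∧ ∃ k, k < 10000 ∧
      ((Wedge k (ε * x) (ε * y) z ∧ 1 - z + dR k * (ε * x) ≤ 1 + sR k) ∨
       (Wedge k (ε * y) (ε * -x) (-z) ∧ 1 - -z + dR k * (ε * y) ≤ 1 + sR k)) := by
  obtain ⟨ε, hε, k, hk, W⟩ := wedge_sign (X := x) h1 h2
  obtain ⟨ε', hε', k', hk', W'⟩ := wedge_sign (X := y) (Y := -x) (z := -z)
    (by linarith) (by linarith)
  have f := facts hk
  have f' := facts hk'
  have hεε : ε * ε = 1 := by rcases hε with h | h <;> rw [h] <;> norm_num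
  have hσ : ε * ε' = 1 ∨ ε * ε' = -1 := by
    rcases hε with h | h <;> rcases hε' with h' | h' <;> rw [h, h'] <;> norm_num
  have e1 : ε * ε' * (ε * y) = ε' * y := by linear_combination ε' * y * hεε
  have e2 : -(ε * ε' * (ε * x)) = ε' * -x := by linear_combination (-(ε' * x)) * hεε
  have := pair_lemma (X := ε * x) (Y := ε * y) (z := z) hσ (by norm_num : (0:ℝ) < 21 / 100)
    (by norm_num : (23 / 100 : ℝ) * (1 + 23 / 100) < 1) (tR_nonneg k) (tR_le hk) (tR_nonneg k')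
    (tR_le hk') f.b0 f.b1 f.d0 f.d1 f.s0 f'.b0 f'.b1 f'.d0 f'.d1 f'.s0 f.h4 f'.h4 f.h5 f.h6
    f'.h5 f'.h6 (comono hk hk') W.1 W.2
    (by rw [e1, e2]; have := W'.1; linarith) (by rw [e1, e2]; have := W'.2; linarith)
  rcases this with h | h
  · exact ⟨ε, hε, k, hk, Or.inl ⟨W, h⟩⟩
  · rw [e1] at h
    exact ⟨ε', hε', k', hk', Or.inr ⟨W', by linarith⟩⟩

lemma cR_sum : ∑ k ∈ Finset.range 10000, cR k ≤ 4996 / 10000 := by
  have h := Cn_sum
  rw [sumFrom_spec] at h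
  have h' : ((∑ i ∈ Finset.range 10000, Cn (0 + i) : ℕ) : ℝ) ≤ 4996000000 := by exact_mod_cast h
  simp only [zero_add, Nat.cast_sum] at h'
  unfold cR
  rw [← Finset.sum_div]
  linarith

end Vale.Agent.P243
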