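import Mathlib

/-! Integer data of the covering (unit `10^12`, `10000` sectors) and its kernel-checked
inequalities. -/

namespace Vale.Agent.P243

def An (k : ℕ) : ℕ :=
  10 ^ 12 * (21 * (6000000 * (10000 ^ 10 - k ^ 2 * 10000 ^ 8) + 66540 * (10000 ^ 10 - k ^ 4 * 10000 ^ 6)
    + 45500 * (10000 ^ 10 - k ^ 6 * 10000 ^ 4) + 960 * (10000 ^ 10 - k ^ 8 * 10000 ^ 2)
    + 3492 * (10000 ^ 10 - k ^ 10))) / (1200000000 * 10000 ^ 10)
def Dn (k : ℕ) : ℕ := 10000 * (An k - An (k + 1))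
def Bn (k : ℕ) : ℕ := k * (An k - An (k + 1)) + An k
def Sn (k : ℕ) : ℕ :=
  (100000000 * Bn k * Dn k ^ 2 + 1968 * Dn k * 10 ^ 24) / (21000000 * (10 ^ 24 + Bn k ^ 2)) + 1
def Qn (k : ℕ) : ℕ := 10 ^ 24 + Bn k ^ 2 + 2 * Dn k ^ 2
def newton (q x : ℕ) : ℕ := (x + q / x) / 2
def Cn (k : ℕ) : ℕ :=
  10 ^ 10 * (10 ^ 12 + Sn k) ^ 2
    / (20000 * 10 ^ 12 * newton (Qn k) (newton (Qn k) (newton (Qn k) (10 ^ 12)))) + 2

def chk (k : ℕ) : Bool :=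
  Nat.ble (An (k + 1)) (An k) && Nat.ble (100 * Bn k) (23 * 10 ^ 12)
    && Nat.ble (100 * Dn k) (23 * 10 ^ 12)
    && Nat.ble (100000000 * Bn k * Dn k ^ 2 + 1968 * Dn k * 10 ^ 24)
        (21000000 * (10 ^ 24 + Bn k ^ 2) * Sn k)
    && Nat.ble (10 ^ 12 * Dn k) (21000000 * k * (10 ^ 12 + Sn k) + 16000000 * 10 ^ 12)
    && Nat.ble (21000000 * (k + 1) * (10 ^ 12 + Sn k)) (10 ^ 12 * Dn k + 16000000 * 10 ^ 12)
    && Nat.ble (10 ^ 20 * (10 ^ 12 + Sn k) ^ 4) (Cn k ^ 2 * Qn k * 20000 ^ 2 * 10 ^ 24)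
    && (Nat.beq k 9999 || (Nat.ble (Bn k) (Bn (k + 1))
        && Nat.ble (100 * Dn k ^ 2 + 21 * Bn (k + 1) * Sn (k + 1))
            (100 * Dn (k + 1) ^ 2 + 21 * Bn k * Sn k)))

/-- `chk` holds at `a, a + 1, …, a + m - 1` -/
def allFrom (a : ℕ) : ℕ → Bool
  | 0 => true
  | m + 1 => chk (a + m) && allFrom a m

def sumFrom (a : ℕ) : ℕ → ℕ
  | 0 => 0
  | m + 1 => Cn (a + m) + sumFrom a m

theorem chk_all : allFrom 0 10000 = true := by decide +kernel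

theorem Cn_sum : sumFrom 0 10000 ≤ 4996000000 := by decide +kernel

theorem An_last : An 10000 = 0 := by decide +kernel

end Vale.Agent.P243
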