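import Mathlib

namespace Vale.Agent.P243

open MeasureTheory

/-- Euclidean three-space. -/
abbrev Space : Type := EuclideanSpace ℝ (Fin 3)

/-- Planar area: the two-dimensional Hausdorff measure normalised to agree with Lebesgue
measure on planes. -/
noncomputable def area (B : Set Space) : ENNReal := MeasureTheory.Measure.euclideanHausdorffMeasure 2 B

/-- Area of the orthogonal projection of `K` onto the plane orthogonal to the unit vector `u`. -/
noncomputable def projArea (K : Set Space) (u : Space) : ENNReal :=
  area ((fun x => x - inner ℝ u x • u) '' K)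

/-- The smallest area of an orthogonal projection of `K` onto a plane. -/
noncomputable def minProjArea (K : Set Space) : ENNReal :=
  ⨅ u : {u : Space // ‖u‖ = 1}, projArea K u

/-- The cylinder `B + ℝ u`. -/
def cylinder (u : Space) (B : Set Space) : Set Space :=
  {x | ∃ b ∈ B, ∃ t : ℝ, x = b + t • u}

/-- The regular tetrahedron with vertices `(1,1,1), (1,-1,-1), (-1,1,-1), (-1,-1,1)`. -/
noncomputable def tetrahedron : Set Space :=
  convexHull ℝ {WithLp.toLp 2 ![1, 1, 1], WithLp.toLp 2 ![1, -1, -1],
    WithLp.toLp 2 ![-1, 1, -1], WithLp.toLp 2 ![-1, -1, 1]}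

end Vale.Agent.P243
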