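import Vale.Agent.P243.Tet
import Vale.Agent.P243.Cover

/-! Assembly of the covering of the regular tetrahedron by 40000 triangular cylinders. -/

namespace Vale.Agent.P243

open MeasureTheory Set

/-- the four rotated frames -/
noncomputable def fr (ε : ℝ) (low : Bool) (X Y Z : ℝ) : E3 :=
  if low then !₂[(ε * X - ε * Y) / 2, (-(ε * X) - ε * Y) / 2, -Z]
  else !₂[(ε * X + ε * Y) / 2, (ε * X - ε * Y) / 2, Z]

noncomputable def sg (b : Bool) : ℝ := if b then 1 else -1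

abbrev Idx := Bool × Bool × Fin 10000

noncomputable def dirU (i : Idx) : E3 := fr (sg i.1) i.2.1 1 (-bR i.2.2) (dR i.2.2)
noncomputable def apex (i : Idx) : E3 := fr (sg i.1) i.2.1 0 0 1
noncomputable def e1 (i : Idx) : E3 :=
  fr (sg i.1) i.2.1 0 (tR i.2.2 * (1 + sR i.2.2)) (-(1 + sR i.2.2))
noncomputable def e2 (i : Idx) : E3 :=
  fr (sg i.1) i.2.1 0 (tR (i.2.2 + 1) * (1 + sR i.2.2)) (-(1 + sR i.2.2))

lemma dirU_normsq (i : Idx) : ‖dirU i‖ ^ 2 = (1 + bR i.2.2 ^ 2 + 2 * dR i.2.2 ^ 2) / 2 := by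
  obtain ⟨a, b, k⟩ := i
  rw [normsq3]
  cases a <;> cases b <;> simp [dirU, fr, sg] <;> ring

lemma dirU_ne (i : Idx) : dirU i ≠ 0 := by
  intro h
  have := dirU_normsq i
  rw [h, norm_zero] at this
  nlinarith [sq_nonneg (bR i.2.2), sq_nonneg (dR i.2.2)]

lemma tR_succ (k : ℕ) : tR (k + 1) = tR k + 1 / 10000 := by
  unfold tR; push_cast; ring

lemma det_val (i : Idx) : |det3 (e1 i) (e2 i) (dirU i)| = (1 + sR i.2.2) ^ 2 / 20000 := by
  obtain ⟨a, b, k⟩ := i
  rw [abs_eq (by positivity)]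
  cases a <;> cases b <;> simp [det3, e1, e2, dirU, fr, sg, tR_succ] <;>
    first | (left; ring1) | (right; ring1)

noncomputable def uu (i : Idx) : E3 := ‖dirU i‖⁻¹ • dirU i

noncomputable def base (i : Idx) : Set (ℝ ∙ uu i)ᗮ :=
  (ℝ ∙ uu i)ᗮ.orthogonalProjectionOnto '' (aff (apex i) (e1 i) (e2 i) '' Tc)

lemma uu_norm (i : Idx) : ‖uu i‖ = 1 := by
  have hn : ‖dirU i‖ ≠ 0 := norm_ne_zero_iff.2 (dirU_ne i)
  rw [uu, norm_smul]; simp [hn]

lemma base_compact (i : Idx) : IsCompact (base i) := isCompact_tri _ _ _ _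

lemma le_of_sq_le_sq_aux {a b : ℝ} (hb : 0 ≤ b) (h : a ^ 2 ≤ b ^ 2) : a ≤ b :=
  (abs_le_of_sq_le_sq' h hb).2

lemma base_vol (i : Idx) : volume (base i) ≤ ENNReal.ofReal (cR i.2.2 * √2 / 2) := by
  have h := area_cyl (dirU_ne i) (apex i) (e1 i) (e2 i)
  refine (le_of_eq h).trans (ENNReal.ofReal_le_ofReal ?_)
  rw [det_val]
  have f := facts i.2.2.2
  have hn : 0 < ‖dirU i‖ := norm_pos_iff.2 (dirU_ne i)
  have h2 : √2 ^ 2 = 2 := Real.sq_sqrt (by norm_num)
  have hc := f.c0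
  gcongr
  rw [div_le_iff₀ hn]
  apply le_of_sq_le_sq_aux (by positivity)
  have h7 := f.h7
  rw [mul_pow, mul_pow, h2, dirU_normsq]
  linarith

lemma fr_mem (a b : Bool) (k : Fin 10000) {X Y Z : ℝ} (W : Wedge k X Y Z)
    (h : 1 - Z + dR k * X ≤ 1 + sR k) :
    ∃ c ∈ base (a, b, k), ∃ t : ℝ, fr (sg a) b X Y Z = (c : E3) + t • uu (a, b, k) := by
  have hs : 0 < 1 + sR k := by have := (facts k.2).s0; linarith
  obtain ⟨W1, W2⟩ := W
  refine mem_cyl (dirU_ne (a, b, k)) (apex (a, b, k)) (e1 (a, b, k)) (e2 (a, b, k)) _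
    !₂[10000 * (tR (k + 1) * (1 - Z + dR k * X) - (Y + bR k * X)) / (1 + sR k),
      10000 * ((Y + bR k * X) - tR k * (1 - Z + dR k * X)) / (1 + sR k)] ⟨?_, ?_, ?_⟩ X ?_
  · simp only [Matrix.cons_val_zero]
    apply div_nonneg _ hs.le; linarith
  · simp only [Matrix.cons_val_one, Matrix.cons_val_zero]
    apply div_nonneg _ hs.le; linarith
  · simp only [Matrix.cons_val_one, Matrix.cons_val_zero]
    rw [← add_div, div_le_one hs, tR_succ]; linarith
  · ext j
    have hs' := hs.ne'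
    cases b <;> fin_cases j <;> simp [aff, apex, e1, e2, dirU, fr, tR_succ] <;> field_simp <;> ring

lemma covers {x : E3} (hx : x ∈ tet) :
    ∃ i : Idx, ∃ c ∈ base i, ∃ t : ℝ, x = (c : E3) + t • uu i := by
  obtain ⟨h1, h2, h3, h4⟩ := tet_ineq hx
  obtain ⟨ε, hε, k, hk, h⟩ := cover_xyz h1 h2 h3 h4
  obtain ⟨a, ha⟩ : ∃ a, sg a = ε := by
    rcases hε with h | h
    · exact ⟨true, by simp [sg, h]⟩
    · exact ⟨false, by simp [sg, h]⟩
  have hεε : ε * ε = 1 := by rcases hε with h | h <;> rw [h] <;> norm_num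
  rcases h with ⟨W, h⟩ | ⟨W, h⟩
  · refine ⟨(a, false, ⟨k, hk⟩), ?_⟩
    have := fr_mem a false ⟨k, hk⟩ W h
    have hx' : fr (sg a) false (ε * (x 0 + x 1)) (ε * (x 0 - x 1)) (x 2) = x := by
      ext j
      fin_cases j <;> simp [fr, ha, ← mul_assoc, hεε]
    rwa [hx'] at this
  · refine ⟨(a, true, ⟨k, hk⟩), ?_⟩
    have := fr_mem a true ⟨k, hk⟩ W h
    have hx' : fr (sg a) true (ε * (x 0 - x 1)) (ε * -(x 0 + x 1)) (-x 2) = x := by
      ext j
      fin_cases j <;> simp [fr, ha, ← mul_assoc, hεε, -mul_neg] <;> ring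
    rwa [hx'] at this

lemma sum_vol : ∑ i : Idx, volume (base i) ≤ ENNReal.ofReal (4996 / 10000 * (2 * √2)) := by
  refine (Finset.sum_le_sum fun i _ => base_vol i).trans ?_
  rw [← ENNReal.ofReal_sum_of_nonneg
    (fun i _ => by have := (facts i.2.2.2).c0; positivity)]
  apply ENNReal.ofReal_le_ofReal
  simp only [Fintype.sum_prod_type, Fintype.sum_bool]
  have h := cR_sum
  rw [← Fin.sum_univ_eq_sum_range] at h
  rw [← Finset.sum_div, ← Finset.sum_mul]
  have : 0 ≤ √2 := by positivity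
  nlinarith

theorem main :
    ∃ K : Set E3,
      K = convexHull ℝ {!₂[1, 1, 1], !₂[1, -1, -1], !₂[-1, 1, -1], !₂[-1, -1, 1]} ∧
      IsCompact K ∧ Convex ℝ K ∧ (interior K).Nonempty ∧
      ∃ A : ENNReal,
        A = ⨅ v : {v : E3 // ‖v‖ = 1},
          volume ((ℝ ∙ (v : E3))ᗮ.orthogonalProjectionOnto '' K) ∧
        0 < A ∧ A < ⊤ ∧
        ∃ (m : ℕ) (u : Fin m → E3) (B : (i : Fin m) → Set (ℝ ∙ u i)ᗮ),
          (∀ i, ‖u i‖ = 1) ∧ (∀ i, MeasurableSet (B i)) ∧ (∀ i, volume (B i) < ⊤) ∧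
          K ⊆ ⋃ i, {x | ∃ b ∈ B i, ∃ t : ℝ, x = (b : E3) + t • u i} ∧
          ∑ i, volume (B i) ≤ ENNReal.ofReal (4996 / 10000) * A ∧
          ∑ i, volume (B i) < A / 2 ∧
          ∑ i, volume (B i) / volume ((ℝ ∙ u i)ᗮ.orthogonalProjectionOnto '' K) < 1 / 2 := by
  refine ⟨tet, rfl, tet_compact, tet_convex, tet_interior, _, rfl, ?_⟩
  set A : ENNReal := ⨅ v : {v : E3 // ‖v‖ = 1},
          volume ((ℝ ∙ (v : E3))ᗮ.orthogonalProjectionOnto '' tet) with hA
  have hlow : ENNReal.ofReal (2 * √2) ≤ A := le_iInf fun v => tet_lower v.2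
  have hs : 0 < √2 := by positivity
  have htop : A < ⊤ := by
    refine lt_of_le_of_lt (iInf_le _ ⟨uu (true, true, 0), uu_norm _⟩) ?_
    exact (tet_compact.image (ContinuousLinearMap.continuous _)).measure_lt_top
  let e := (Fintype.equivFin Idx).symm
  have hsum : ∑ i, volume (base (e i)) ≤ ENNReal.ofReal (4996 / 10000 * (2 * √2)) := by
    rw [Equiv.sum_comp e (fun i => volume (base i))]; exact sum_vol
  refine ⟨lt_of_lt_of_le (by simp) hlow, htop, Fintype.card Idx, fun i => uu (e i),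
    fun i => base (e i), fun i => uu_norm _, fun i => (base_compact _).measurableSet,
    fun i => (base_compact _).measure_lt_top, ?_, ?_, ?_, ?_⟩
  · intro x hx
    obtain ⟨i, hi⟩ := covers hx
    obtain ⟨j, rfl⟩ := e.surjective i
    exact mem_iUnion.2 ⟨j, hi⟩
  · refine hsum.trans ?_
    rw [ENNReal.ofReal_mul (by norm_num)]
    gcongr
  · refine lt_of_le_of_lt hsum (lt_of_lt_of_le ?_ (ENNReal.div_le_div_right hlow 2))
    rw [← ENNReal.ofReal_ofNat 2, ← ENNReal.ofReal_div_of_pos (by norm_num),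
      ENNReal.ofReal_lt_ofReal_iff (by positivity)]
    linarith
  · calc ∑ i, volume (base (e i)) / volume ((ℝ ∙ uu (e i))ᗮ.orthogonalProjectionOnto '' tet)
        ≤ ∑ i, volume (base (e i)) / ENNReal.ofReal (2 * √2) :=
          Finset.sum_le_sum fun i _ => ENNReal.div_le_div_left (tet_lower (uu_norm _)) _
      _ = (∑ i, volume (base (e i))) / ENNReal.ofReal (2 * √2) := by
          simp only [div_eq_mul_inv, Finset.sum_mul]
      _ ≤ ENNReal.ofReal (4996 / 10000 * (2 * √2)) / ENNReal.ofReal (2 * √2) :=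
          ENNReal.div_le_div_right hsum _
      _ = ENNReal.ofReal (4996 / 10000) := by
          rw [← ENNReal.ofReal_div_of_pos (by positivity)]
          congr 1; field_simp
      _ < 1 / 2 := by
          rw [← ENNReal.ofReal_ofNat 2, ← ENNReal.ofReal_one,
            ← ENNReal.ofReal_div_of_pos (by norm_num), ENNReal.ofReal_lt_ofReal_iff (by norm_num)]
          norm_num

end Vale.Agent.P243
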