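import Vale.Agent.P243.Defs
import Vale.Agent.P243.Main

/-! Translation to the ambient formulation. -/

namespace Vale.Agent.P243

open MeasureTheory Set

lemma area_coe {u : E3} (hu : ‖u‖ = 1) (B : Set (ℝ ∙ u)ᗮ) :
    area ((fun b : (ℝ ∙ u)ᗮ => (b : E3)) '' B) = volume B := by
  have hu0 : u ≠ 0 := by rintro rfl; simp at hu
  have : Fact (Module.finrank ℝ E3 = 2 + 1) := ⟨by simp⟩
  have hW : Module.finrank ℝ (ℝ ∙ u)ᗮ = 2 := Submodule.finrank_orthogonal_span_singleton hu0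
  have h := InnerProductSpace.euclideanHausdorffMeasure_eq_volume (V := (ℝ ∙ u)ᗮ)
  rw [hW] at h
  rw [area, Isometry.euclideanHausdorffMeasure_image isometry_subtype_coe, h]

lemma projArea_eq {u : E3} (hu : ‖u‖ = 1) (K : Set E3) :
    projArea K u = volume ((ℝ ∙ u)ᗮ.orthogonalProjectionOnto '' K) := by
  rw [← area_coe hu, projArea, image_image]
  simp only [proj_val hu]

lemma minProjArea_eq (K : Set E3) :
    minProjArea K = ⨅ v : {v : E3 // ‖v‖ = 1},
      volume ((ℝ ∙ (v : E3))ᗮ.orthogonalProjectionOnto '' K) :=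
  iInf_congr fun v => projArea_eq v.2 K

lemma measurableSet_coe (u : E3) {B : Set (ℝ ∙ u)ᗮ} (hB : MeasurableSet B) :
    MeasurableSet ((fun b : (ℝ ∙ u)ᗮ => (b : E3)) '' B) :=
  (MeasurableEmbedding.subtype_coe
    (Submodule.isClosed_orthogonal (ℝ ∙ u)).measurableSet).measurableSet_image.2 hB

lemma inner_coe (u : E3) (b : (ℝ ∙ u)ᗮ) : inner ℝ u (b : E3) = 0 :=
  Submodule.mem_orthogonal_singleton_iff_inner_right.1 b.2

theorem final :
    IsCompact tetrahedron ∧ Convex ℝ tetrahedron ∧ (interior tetrahedron).Nonempty ∧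
    0 < minProjArea tetrahedron ∧ minProjArea tetrahedron < ⊤ ∧
    ∃ (m : ℕ) (u : Fin m → Space) (B : Fin m → Set Space),
      (∀ i, ‖u i‖ = 1) ∧ (∀ i, ∀ b ∈ B i, inner ℝ (u i) b = 0) ∧
      (∀ i, MeasurableSet (B i)) ∧ (∀ i, area (B i) < ⊤) ∧
      tetrahedron ⊆ ⋃ i, cylinder (u i) (B i) ∧
      ∑ i, area (B i) ≤ ENNReal.ofReal (4996 / 10000) * minProjArea tetrahedron ∧
      ∑ i, area (B i) < minProjArea tetrahedron / 2 ∧
      ∑ i, area (B i) / projArea tetrahedron (u i) < 1 / 2 := by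
  obtain ⟨K, hK, h1, h2, h3, A, hA, h4, h5, m, u, B, hu, hm, hf, hc, s1, s2, s3⟩ := main
  have hK' : K = tetrahedron := hK
  subst hK'
  rw [← minProjArea_eq] at hA
  subst hA
  refine ⟨h1, h2, h3, h4, h5, m, u, fun i => (fun b : (ℝ ∙ u i)ᗮ => (b : E3)) '' B i, hu, ?_,
    fun i => measurableSet_coe _ (hm i), ?_, ?_, ?_, ?_, ?_⟩
  · rintro i _ ⟨b, _, rfl⟩; exact inner_coe _ b
  · intro i; rw [area_coe (hu i)]; exact hf i
  · intro x hx
    obtain ⟨i, b, hb, t, ht⟩ := mem_iUnion.1 (hc hx)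
    exact mem_iUnion.2 ⟨i, b, ⟨b, hb, rfl⟩, t, ht⟩
  · simp only [area_coe (hu _)]; exact s1
  · simp only [area_coe (hu _)]; exact s2
  · simp only [area_coe (hu _), projArea_eq (hu _)]; exact s3

end Vale.Agent.P243
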