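import Vale.Agent.P243.Area

/-! Lower bounds for projections of convex sets; triangular cylinders. -/

namespace Vale.Agent.P243

open MeasureTheory Set

lemma isCompact_Tc : IsCompact Tc := by
  apply Metric.isCompact_of_isClosed_isBounded
  · have h0 : Continuous fun s : E2 => s 0 := by fun_prop
    have h1 : Continuous fun s : E2 => s 1 := by fun_prop
    exact (isClosed_le continuous_const h0).inter
      ((isClosed_le continuous_const h1).inter (isClosed_le (h0.add h1) continuous_const))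
  · rw [Metric.isBounded_iff_subset_closedBall 0]
    refine ⟨2, fun s hs => ?_⟩
    obtain ⟨h0, h1, h2⟩ := hs
    rw [mem_closedBall_zero_iff, EuclideanSpace.norm_eq]
    apply Real.sqrt_le_iff.2
    refine ⟨by norm_num, ?_⟩
    simp only [Fin.sum_univ_two, Real.norm_eq_abs, sq_abs]
    nlinarith

lemma continuous_aff (a v w : E3) : Continuous (aff a v w) := by
  unfold aff; fun_prop

lemma isCompact_tri (u a v w : E3) :
    IsCompact ((ℝ ∙ u)ᗮ.orthogonalProjectionOnto '' (aff a v w '' Tc)) :=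
  (isCompact_Tc.image (continuous_aff a v w)).image (ContinuousLinearMap.continuous _)

lemma aff_mem {K : Set E3} (hK : Convex ℝ K) {A B C : E3} (hA : A ∈ K) (hB : B ∈ K) (hC : C ∈ K)
    {s : E2} (hs : s ∈ Tc) : aff A (B - A) (C - A) s ∈ K := by
  obtain ⟨h0, h1, h2⟩ := hs
  have := hK.sum_mem (t := Finset.univ) (w := ![1 - s 0 - s 1, s 0, s 1]) (z := ![A, B, C])
    (by intro i _; fin_cases i <;> simp <;> linarith) (by simp [Fin.sum_univ_three]; ring)
    (by intro i _; fin_cases i <;> simpa)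
  convert this using 1
  simp only [aff, Fin.sum_univ_three, Matrix.cons_val_zero, Matrix.cons_val_one,
    Matrix.cons_val_two, Matrix.head_cons, Matrix.tail_cons]
  module

lemma To_sub : To ⊆ Tc := fun _ hs => ⟨hs.1, hs.2.1.le, hs.2.2⟩

lemma tri_lower {K : Set E3} (hK : Convex ℝ K) {A B C u : E3} (hA : A ∈ K) (hB : B ∈ K)
    (hC : C ∈ K) (hu : ‖u‖ = 1) :
    ENNReal.ofReal (|det3 (B - A) (C - A) u| / 2)
      ≤ volume ((ℝ ∙ u)ᗮ.orthogonalProjectionOnto '' K) := by
  have h := area_image hu A (B - A) (C - A) Tc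
  rw [vol_Tc, ← ENNReal.ofReal_mul (abs_nonneg _)] at h
  rw [div_eq_mul_one_div, ← h]
  apply measure_mono
  apply image_mono
  rintro _ ⟨s, hs, rfl⟩
  exact aff_mem hK hA hB hC hs

lemma proj_lower {K : Set E3} (hK : Convex ℝ K) {A B C D u : E3} (hA : A ∈ K) (hB : B ∈ K)
    (hC : C ∈ K) (hD : D ∈ K) (hu : ‖u‖ = 1) :
    ENNReal.ofReal (|det3 (B - A) (C - D) u| / 2)
      ≤ volume ((ℝ ∙ u)ᗮ.orthogonalProjectionOnto '' K) := by
  have hsplit : det3 (B - A) (C - D) u = det3 (B - A) (C - A) u - det3 (B - A) (D - A) u := by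
    simp only [det3, PiLp.sub_apply]; ring
  set c := det3 (B - A) (C - A) u with hc
  set d := det3 (B - A) (D - A) u with hd
  by_cases hcd : 0 ≤ c * d
  · rcases le_total |c| |d| with h | h
    · refine le_trans (ENNReal.ofReal_le_ofReal ?_) (tri_lower hK hA hB hD hu)
      rw [hsplit, ← hd]
      have : |c - d| ≤ |d| := by
        rw [← sq_le_sq, ← sub_nonneg]
        have h2 : c ^ 2 ≤ d ^ 2 := sq_le_sq.2 h
        have h3 : c ^ 2 ≤ c * d := by
          have := abs_mul c d
          rw [abs_of_nonneg hcd] at this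
          rw [this, ← sq_abs c, sq]
          exact mul_le_mul_of_nonneg_left h (abs_nonneg _)
        nlinarith
      linarith
    · refine le_trans (ENNReal.ofReal_le_ofReal ?_) (tri_lower hK hA hB hC hu)
      rw [hsplit, ← hc]
      have : |c - d| ≤ |c| := by
        rw [← sq_le_sq, ← sub_nonneg]
        have h3 : d ^ 2 ≤ c * d := by
          have := abs_mul c d
          rw [abs_of_nonneg hcd] at this
          rw [this, ← sq_abs d, sq]
          exact mul_le_mul_of_nonneg_right h (abs_nonneg _)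
        nlinarith
      linarith
  · push Not at hcd
    have h1 := area_image hu A (B - A) (C - A) Tc
    have h2 := area_image hu A (B - A) (D - A) To
    rw [vol_Tc, ← ENNReal.ofReal_mul (abs_nonneg _)] at h1
    rw [vol_To, ← ENNReal.ofReal_mul (abs_nonneg _)] at h2
    have hdisj : Disjoint ((ℝ ∙ u)ᗮ.orthogonalProjectionOnto '' (aff A (B - A) (C - A) '' Tc))
        ((ℝ ∙ u)ᗮ.orthogonalProjectionOnto '' (aff A (B - A) (D - A) '' To)) := by
      rw [Set.disjoint_left]
      rintro _ ⟨_, ⟨s, hs, rfl⟩, rfl⟩ ⟨_, ⟨r, hr, rfl⟩, he⟩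
      have he' := congrArg (fun y : (ℝ ∙ u)ᗮ => (y : E3)) he
      simp only [proj_val hu] at he'
      set p := inner ℝ u (aff A (B - A) (D - A) r)
      set q := inner ℝ u (aff A (B - A) (C - A) s)
      have e0 := congrArg (fun y : E3 => y 0) he'
      have e1 := congrArg (fun y : E3 => y 1) he'
      have e2 := congrArg (fun y : E3 => y 2) he'
      simp only [aff, PiLp.sub_apply, PiLp.add_apply, PiLp.smul_apply, smul_eq_mul] at e0 e1 e2
      have key : r 1 * d = s 1 * c := by
        simp only [hc, hd, det3, PiLp.sub_apply]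
        linear_combination
          ((B 2 - A 2) * u 1 - (B 1 - A 1) * u 2) * e0
          + ((B 0 - A 0) * u 2 - (B 2 - A 2) * u 0) * e1
          + ((B 1 - A 1) * u 0 - (B 0 - A 0) * u 1) * e2
      have hr1 : 0 < r 1 := hr.2.1
      have hs1 : 0 ≤ s 1 := hs.2.1
      have hd0 : d ≠ 0 := by rintro h; rw [h] at hcd; simp at hcd
      have : 0 < r 1 * (d * d) := mul_pos hr1 (mul_self_pos.2 hd0)
      have h4 : s 1 * (c * d) ≤ 0 := mul_nonpos_of_nonneg_of_nonpos hs1 hcd.le
      have h5 : r 1 * (d * d) = s 1 * (c * d) := by linear_combination d * key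
      linarith
    have hun := measure_union' (μ := volume) hdisj (isCompact_tri u A (B - A) (C - A)).measurableSet
    rw [h1, h2, ← ENNReal.ofReal_add (by positivity) (by positivity)] at hun
    refine le_trans (ENNReal.ofReal_le_ofReal ?_) (hun.symm.le.trans (measure_mono ?_))
    · rw [hsplit]
      have := abs_sub c d
      linarith
    · apply union_subset
      · apply image_mono
        rintro _ ⟨s, hs, rfl⟩
        exact aff_mem hK hA hB hC hs
      · apply image_mono
        rintro _ ⟨s, hs, rfl⟩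
        exact aff_mem hK hA hB hD (To_sub hs)

/-- membership in a triangular cylinder -/
lemma mem_cyl {U : E3} (hU : U ≠ 0) (a v w x : E3) (s : E2) (hs : s ∈ Tc) (t : ℝ)
    (hx : x = aff a v w s + t • U) :
    ∃ b ∈ (ℝ ∙ (‖U‖⁻¹ • U))ᗮ.orthogonalProjectionOnto '' (aff a v w '' Tc), ∃ t' : ℝ,
      x = (b : E3) + t' • (‖U‖⁻¹ • U) := by
  have hn : ‖U‖ ≠ 0 := norm_ne_zero_iff.2 hU
  have hu : ‖‖U‖⁻¹ • U‖ = 1 := by rw [norm_smul]; simp [hn]
  refine ⟨_, ⟨_, ⟨s, hs, rfl⟩, rfl⟩, inner ℝ (‖U‖⁻¹ • U) (aff a v w s) + t * ‖U‖, ?_⟩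
  rw [proj_val hu, hx, add_smul, mul_smul t, smul_smul ‖U‖, mul_inv_cancel₀ hn, one_smul]
  abel

lemma area_cyl {U : E3} (hU : U ≠ 0) (a v w : E3) :
    volume ((ℝ ∙ (‖U‖⁻¹ • U))ᗮ.orthogonalProjectionOnto '' (aff a v w '' Tc))
      = ENNReal.ofReal (|det3 v w U| / ‖U‖ / 2) := by
  have hn : ‖U‖ ≠ 0 := norm_ne_zero_iff.2 hU
  have hu : ‖‖U‖⁻¹ • U‖ = 1 := by rw [norm_smul]; simp [hn]
  rw [area_image hu, vol_Tc, ← ENNReal.ofReal_mul (abs_nonneg _)]
  congr 1
  have : det3 v w (‖U‖⁻¹ • U) = det3 v w U * ‖U‖⁻¹ := by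
    simp only [det3, PiLp.smul_apply, smul_eq_mul]; ring
  rw [this, abs_mul, abs_of_nonneg (a := ‖U‖⁻¹) (by positivity)]
  ring

end Vale.Agent.P243
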