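import Vale.Agent.P243.Proj

/-! The regular tetrahedron. -/

namespace Vale.Agent.P243

open MeasureTheory Set

noncomputable def tet : Set E3 :=
  convexHull ℝ {!₂[1, 1, 1], !₂[1, -1, -1], !₂[-1, 1, -1], !₂[-1, -1, 1]}

lemma tet_convex : Convex ℝ tet := convex_convexHull _ _

lemma tet_compact : IsCompact tet := Set.Finite.isCompact_convexHull ℝ (by simp)

lemma p0_mem : (!₂[1, 1, 1] : E3) ∈ tet := subset_convexHull _ _ (by simp)
lemma p1_mem : (!₂[1, -1, -1] : E3) ∈ tet := subset_convexHull _ _ (by simp)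
lemma p2_mem : (!₂[-1, 1, -1] : E3) ∈ tet := subset_convexHull _ _ (by simp)
lemma p3_mem : (!₂[-1, -1, 1] : E3) ∈ tet := subset_convexHull _ _ (by simp)

lemma tet_ineq {x : E3} (hx : x ∈ tet) :
    x 0 - x 1 ≤ 1 - x 2 ∧ -(x 0 - x 1) ≤ 1 - x 2 ∧ x 0 + x 1 ≤ 1 + x 2 ∧
      -(x 0 + x 1) ≤ 1 + x 2 := by
  have hc : Convex ℝ {x : E3 | x 0 - x 1 ≤ 1 - x 2 ∧ -(x 0 - x 1) ≤ 1 - x 2 ∧
      x 0 + x 1 ≤ 1 + x 2 ∧ -(x 0 + x 1) ≤ 1 + x 2} := by
    rintro x ⟨a1, a2, a3, a4⟩ y ⟨b1, b2, b3, b4⟩ s t hs ht hst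
    simp only [mem_ofPred_eq, PiLp.add_apply, PiLp.smul_apply, smul_eq_mul]
    refine ⟨?_, ?_, ?_, ?_⟩
    · nlinarith [mul_le_mul_of_nonneg_left a1 hs, mul_le_mul_of_nonneg_left b1 ht]
    · nlinarith [mul_le_mul_of_nonneg_left a2 hs, mul_le_mul_of_nonneg_left b2 ht]
    · nlinarith [mul_le_mul_of_nonneg_left a3 hs, mul_le_mul_of_nonneg_left b3 ht]
    · nlinarith [mul_le_mul_of_nonneg_left a4 hs, mul_le_mul_of_nonneg_left b4 ht]
  refine convexHull_min ?_ hc hx
  intro y hy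
  simp only [mem_insert_iff, mem_singleton_iff] at hy
  rcases hy with rfl | rfl | rfl | rfl <;> simp <;> norm_num

lemma tet_interior : (interior tet).Nonempty := by
  refine ⟨0, mem_interior.2 ⟨Metric.ball 0 (1 / 3), ?_, Metric.isOpen_ball,
    Metric.mem_ball_self (by norm_num)⟩⟩
  intro x hx
  rw [mem_ball_zero_iff] at hx
  have h0 := abs_le.1 ((PiLp.norm_apply_le x 0).trans hx.le)
  have h1 := abs_le.1 ((PiLp.norm_apply_le x 1).trans hx.le)
  have h2 := abs_le.1 ((PiLp.norm_apply_le x 2).trans hx.le)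
  have := tet_convex.sum_mem (t := Finset.univ)
    (w := ![(1 + x 0 + x 1 + x 2) / 4, (1 + x 0 - x 1 - x 2) / 4, (1 - x 0 + x 1 - x 2) / 4,
      (1 - x 0 - x 1 + x 2) / 4])
    (z := ![!₂[1, 1, 1], !₂[1, -1, -1], !₂[-1, 1, -1], !₂[-1, -1, 1]])
    (by intro i _; fin_cases i <;> simp <;> linarith) (by simp [Fin.sum_univ_four]; ring)
    (by intro i _; fin_cases i; exacts [p0_mem, p1_mem, p2_mem, p3_mem])
  convert this using 1
  ext i
  fin_cases i <;> simp [Fin.sum_univ_four] <;> ring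

lemma tet_faces {u : E3} (hu : ‖u‖ = 1) :
    ENNReal.ofReal (2 * (|u 0| + |u 1| + |u 2|))
      ≤ volume ((ℝ ∙ u)ᗮ.orthogonalProjectionOnto '' tet) := by
  have f3 := tri_lower tet_convex p0_mem p1_mem p2_mem hu
  have f2 := tri_lower tet_convex p0_mem p1_mem p3_mem hu
  have f1 := tri_lower tet_convex p0_mem p2_mem p3_mem hu
  have f0 := tri_lower tet_convex p1_mem p2_mem p3_mem hu
  simp only [det3, PiLp.sub_apply] at f0 f1 f2 f3
  simp at f0 f1 f2 f3
  rcases abs_cases (u 0) with ⟨a, _⟩ | ⟨a, _⟩ <;> rcases abs_cases (u 1) with ⟨b, _⟩ | ⟨b, _⟩ <;>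
    rcases abs_cases (u 2) with ⟨c, _⟩ | ⟨c, _⟩ <;> rw [a, b, c] <;>
    first
    | exact le_trans (ENNReal.ofReal_le_ofReal (by
        rw [le_div_iff₀ (by norm_num), le_abs]; left; linarith)) f0
    | exact le_trans (ENNReal.ofReal_le_ofReal (by
        rw [le_div_iff₀ (by norm_num), le_abs]; right; linarith)) f0
    | exact le_trans (ENNReal.ofReal_le_ofReal (by
        rw [le_div_iff₀ (by norm_num), le_abs]; left; linarith)) f1
    | exact le_trans (ENNReal.ofReal_le_ofReal (by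
        rw [le_div_iff₀ (by norm_num), le_abs]; right; linarith)) f1
    | exact le_trans (ENNReal.ofReal_le_ofReal (by
        rw [le_div_iff₀ (by norm_num), le_abs]; left; linarith)) f2
    | exact le_trans (ENNReal.ofReal_le_ofReal (by
        rw [le_div_iff₀ (by norm_num), le_abs]; right; linarith)) f2
    | exact le_trans (ENNReal.ofReal_le_ofReal (by
        rw [le_div_iff₀ (by norm_num), le_abs]; left; linarith)) f3
    | exact le_trans (ENNReal.ofReal_le_ofReal (by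
        rw [le_div_iff₀ (by norm_num), le_abs]; right; linarith)) f3

lemma tet_quad {u : E3} (hu : ‖u‖ = 1) (i : Fin 3) :
    ENNReal.ofReal (4 * |u i|) ≤ volume ((ℝ ∙ u)ᗮ.orthogonalProjectionOnto '' tet) := by
  have f0 := proj_lower tet_convex p0_mem p1_mem p2_mem p3_mem hu
  have f1 := proj_lower tet_convex p0_mem p2_mem p1_mem p3_mem hu
  have f2 := proj_lower tet_convex p0_mem p3_mem p1_mem p2_mem hu
  simp only [det3, PiLp.sub_apply] at f0 f1 f2
  simp at f0 f1 f2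
  fin_cases i
  · refine le_trans (ENNReal.ofReal_le_ofReal ?_) f0
    rw [le_div_iff₀ (by norm_num), le_abs]
    rcases abs_cases (u 0) with ⟨a, _⟩ | ⟨a, _⟩ <;> simp only [Fin.zero_eta, a] <;>
      first | (left; linarith) | (right; linarith)
  · refine le_trans (ENNReal.ofReal_le_ofReal ?_) f1
    rw [le_div_iff₀ (by norm_num), le_abs]
    rcases abs_cases (u 1) with ⟨a, _⟩ | ⟨a, _⟩ <;> simp only [Fin.mk_one, a] <;>
      first | (left; linarith) | (right; linarith)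
  · refine le_trans (ENNReal.ofReal_le_ofReal ?_) f2
    rw [le_div_iff₀ (by norm_num), le_abs]
    rcases abs_cases (u 2) with ⟨a, _⟩ | ⟨a, _⟩ <;> simp only [Fin.reduceFinMk, a] <;>
      first | (left; linarith) | (right; linarith)

lemma tet_lower {u : E3} (hu : ‖u‖ = 1) :
    ENNReal.ofReal (2 * √2) ≤ volume ((ℝ ∙ u)ᗮ.orthogonalProjectionOnto '' tet) := by
  have hn := normsq3 u
  rw [hu, ← sq_abs (u 0), ← sq_abs (u 1), ← sq_abs (u 2)] at hn
  have h2 : √2 * √2 = 2 := Real.mul_self_sqrt (by norm_num)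
  have h3 : 0 < √2 := by positivity
  by_cases h : √2 ≤ |u 0| + |u 1| + |u 2|
  · exact le_trans (ENNReal.ofReal_le_ofReal (by linarith)) (tet_faces hu)
  by_cases h0 : √2 ≤ 2 * |u 0|
  · exact le_trans (ENNReal.ofReal_le_ofReal (by linarith)) (tet_quad hu 0)
  by_cases h1 : √2 ≤ 2 * |u 1|
  · exact le_trans (ENNReal.ofReal_le_ofReal (by linarith)) (tet_quad hu 1)
  by_cases h2' : √2 ≤ 2 * |u 2|
  · exact le_trans (ENNReal.ofReal_le_ofReal (by linarith)) (tet_quad hu 2)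
  exfalso
  push Not at h h0 h1 h2'
  have a0 := abs_nonneg (u 0)
  have a1 := abs_nonneg (u 1)
  have a2 := abs_nonneg (u 2)
  nlinarith [mul_le_mul_of_nonneg_left h0.le a0, mul_le_mul_of_nonneg_left h1.le a1,
    mul_le_mul_of_nonneg_left h2'.le a2, mul_lt_mul_of_pos_left h h3]

end Vale.Agent.P243
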